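import Mathlib

/-!
# A sorting lemma

For a finite set `X` with an injective key into a linear order and a subset `P`, there is a
key-up-closed subset `F` of `X` with `|P \ F| = |F \ P| = d` and `d * d` at most the number of
pairs `(u, v)` with `u ∈ P`, `v ∈ X \ P` and `key u < key v`.
-/

namespace Vale.Agent.H10.Removal

open Finset

variable {α : Type*} [DecidableEq α] {Λ : Type*} [LinearOrder Λ]

theorem exists_upset_card (key : α → Λ) :
    ∀ (k : ℕ) (X : Finset α), k ≤ X.card →
      ∃ F ⊆ X, F.card = k ∧ ∀ x ∈ F, ∀ y ∈ X, key x < key y → y ∈ F := by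
  intro k
  induction k with
  | zero =>
    intro X _
    exact ⟨∅, empty_subset _, card_empty, fun x hx => absurd hx (notMem_empty x)⟩
  | succ k ih =>
    intro X hk
    have hne : X.Nonempty := by
      rw [← card_pos]; omega
    obtain ⟨m, hmX, hmax⟩ := exists_max_image X key hne
    have hk' : k ≤ (X.erase m).card := by
      rw [card_erase_of_mem hmX]; omega
    obtain ⟨F, hFX, hFc, hup⟩ := ih (X.erase m) hk'
    have hmF : m ∉ F := fun h => (mem_erase.mp (hFX h)).1 rfl
    refine ⟨insert m F, ?_, ?_, ?_⟩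
    · intro x hx
      rcases mem_insert.mp hx with rfl | hx
      · exact hmX
      · exact (mem_erase.mp (hFX hx)).2
    · rw [card_insert_of_notMem hmF, hFc]
    · intro x hx y hy hxy
      by_cases hym : y = m
      · exact hym ▸ mem_insert_self _ _
      · rcases mem_insert.mp hx with rfl | hx
        · exact absurd (hmax y hy) (not_le.mpr hxy)
        · exact mem_insert_of_mem (hup x hx y (mem_erase.mpr ⟨hym, hy⟩) hxy)

theorem sort_lemma (X P : Finset α) (hP : P ⊆ X) (key : α → Λ) (hinj : Set.InjOn key X) :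
    ∃ F ⊆ X, (∀ x ∈ F, ∀ y ∈ X, key x < key y → y ∈ F) ∧
      ∃ d : ℕ, (P \ F).card = d ∧ (F \ P).card = d ∧
        d * d ≤ ((P ×ˢ (X \ P)).filter (fun p => key p.1 < key p.2)).card := by
  obtain ⟨F, hFX, hFc, hup⟩ := exists_upset_card key P.card X (card_le_card hP)
  refine ⟨F, hFX, hup, (P \ F).card, rfl, ?_, ?_⟩
  · exact (card_sdiff_comm hFc.symm).symm
  · have h1 : (F \ P).card = (P \ F).card := (card_sdiff_comm hFc.symm).symm
    have hsub : (P \ F) ×ˢ (F \ P) ⊆ (P ×ˢ (X \ P)).filter (fun p => key p.1 < key p.2) := by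
      intro p hp
      rw [mem_product, mem_sdiff, mem_sdiff] at hp
      obtain ⟨⟨h1P, h1F⟩, h2F, h2P⟩ := hp
      rw [mem_filter, mem_product, mem_sdiff]
      refine ⟨⟨h1P, hFX h2F, h2P⟩, ?_⟩
      by_contra hlt
      have hle : key p.2 ≤ key p.1 := not_lt.mp hlt
      rcases lt_or_eq_of_le hle with h | h
      · exact h1F (hup p.2 h2F p.1 (hP h1P) h)
      · have : p.2 = p.1 := hinj (hFX h2F) (hP h1P) h
        exact h1F (this ▸ h2F)
    calc (P \ F).card * (P \ F).card = (P \ F).card * (F \ P).card := by rw [h1]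
      _ = ((P \ F) ×ˢ (F \ P)).card := (card_product _ _).symm
      _ ≤ _ := card_le_card hsub

end Vale.Agent.H10.Removal
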