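import Vale.Agent.H10.Removal.Count

/-!
# The polynomial removal lemma for the `2 × 2` identity pattern (internal form)
-/

namespace Vale.Agent.H10.Removal

open Finset

variable {n : ℕ}

/-- the number of copies of the identity pattern -/
def copNum (A : Fin n → Fin n → Bool) : ℕ := ∑ k1, ∑ k2, (pairCop A k1 k2).card

/-- the entries where two matrices differ -/
def diffSet (A B : Fin n → Fin n → Bool) : Finset (Fin n × Fin n) :=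
  univ.filter fun p => A p.1 p.2 ≠ B p.1 p.2

theorem diffSet_card (A B : Fin n → Fin n → Bool) :
    (diffSet A B).card = ∑ i, (univ.filter fun c => A i c ≠ B i c).card := by
  classical
  rw [diffSet, card_filter, Fintype.sum_prod_type]
  apply sum_congr rfl
  intro i _
  rw [card_filter]

/-- the purely numerical part -/
theorem num_bound {ε q : ℝ} (hε0 : 0 < ε) (hε1 : ε < 1) (hq1 : 128 ≤ q * ε ^ 2)
    (hq2 : q * ε ^ 2 ≤ 129) :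
    ε / 16 * q ^ 2 * (ε ^ 5 / 500000 + 500000 * (1 / 10 ^ 12) * ε ^ 5) +
      q * (1 / 10 ^ 12) * ε ^ 10 + 1 / (q + 1) ≤ ε ^ 2 / 64 := by
  have hu0 : 0 < ε ^ 2 := by positivity
  have hq0 : 0 < q := by
    by_contra h
    have : q * ε ^ 2 ≤ 0 := mul_nonpos_of_nonpos_of_nonneg (not_lt.mp h) hu0.le
    linarith
  have h1 : ε / 16 * q ^ 2 * (ε ^ 5 / 500000 + 500000 * (1 / 10 ^ 12) * ε ^ 5) =
      (q * ε ^ 2) ^ 2 * ε ^ 2 * (1 / 16 * (1 / 500000 + 500000 * (1 / 10 ^ 12))) := by ring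
  have h2 : (q * ε ^ 2) ^ 2 ≤ 129 ^ 2 := by
    apply pow_le_pow_left₀ (by positivity) hq2
  have h3 : (q * ε ^ 2) ^ 2 * ε ^ 2 * (1 / 16 * (1 / 500000 + 500000 * (1 / 10 ^ 12))) ≤
      129 ^ 2 * ε ^ 2 * (1 / 16 * (1 / 500000 + 500000 * (1 / 10 ^ 12))) := by
    gcongr
  have h4 : q * (1 / 10 ^ 12) * ε ^ 10 = (q * ε ^ 2) * ε ^ 8 * (1 / 10 ^ 12) := by ring
  have h5 : ε ^ 8 ≤ ε ^ 2 := by
    apply pow_le_pow_of_le_one hε0.le hε1.le (by norm_num)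
  have h6 : (q * ε ^ 2) * ε ^ 8 * (1 / 10 ^ 12) ≤ 129 * ε ^ 2 * (1 / 10 ^ 12) := by
    gcongr
  have h7 : 1 / (q + 1) ≤ ε ^ 2 / 128 := by
    rw [div_le_div_iff₀ (by linarith) (by norm_num)]
    nlinarith
  rw [h1, h4]
  nlinarith

/-- **Polynomial removal lemma for the identity pattern** (internal form): a matrix with fewer
than `10⁻¹² ε¹⁰ n⁴` copies can be made copy-free by changing fewer than `ε n²` entries. -/
theorem removal_ident (hn : 1 ≤ n) {ε : ℝ} (hε0 : 0 < ε) (hε1 : ε < 1)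
    (A : Fin n → Fin n → Bool)
    (hN : (copNum A : ℝ) < 1 / 10 ^ 12 * ε ^ 10 * (n : ℝ) ^ 4) :
    ∃ B : Fin n → Fin n → Bool, Free B ∧ ((diffSet A B).card : ℝ) < ε * (n : ℝ) ^ 2 := by
  classical
  obtain ⟨dd, hdd, hρ⟩ := exists_free_of_rows A
  set q : ℕ := ⌈128 / ε ^ 2⌉₊ with hq
  have hnR : (1 : ℝ) ≤ n := by exact_mod_cast hn
  have hn0 : (0 : ℝ) < n := by linarith
  have hu0 : 0 < ε ^ 2 := by positivity
  have hq1 : 128 ≤ (q : ℝ) * ε ^ 2 := by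
    have := Nat.le_ceil (128 / ε ^ 2)
    rw [div_le_iff₀ hu0] at this
    exact this
  have hq2 : (q : ℝ) * ε ^ 2 ≤ 129 := by
    have h := Nat.ceil_lt_add_one (show (0:ℝ) ≤ 128 / ε ^ 2 by positivity)
    have h1 : (q : ℝ) * ε ^ 2 < (128 / ε ^ 2 + 1) * ε ^ 2 := mul_lt_mul_of_pos_right h hu0
    have h2 : (128 / ε ^ 2 + 1) * ε ^ 2 = 128 + ε ^ 2 := by field_simp
    have h3 : ε ^ 2 < 1 := by nlinarith
    linarith
  have hq0 : (0 : ℝ) < q := by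
    by_contra h
    have : (q : ℝ) * ε ^ 2 ≤ 0 := mul_nonpos_of_nonpos_of_nonneg (not_lt.mp h) hu0.le
    linarith
  set θ : ℝ := ε ^ 5 / 500000 with hθ
  have hθ0 : 0 < θ := by positivity
  set N : ℕ := copNum A with hNdef
  set D2 : ℕ := ∑ k1, ∑ k2, 2 * dd k1 k2 with hD2
  -- bound for `D2`
  have hpair : ∀ k1 k2, ((2 * dd k1 k2 : ℕ) : ℝ) ≤
      θ * n + ((pairCop A k1 k2).card : ℝ) / (θ * n) := by
    intro k1 k2
    have ht : 0 < θ * n := by positivity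
    have h1 : ((dd k1 k2 : ℕ) : ℝ) ^ 2 ≤ ((pairCop A k1 k2).card : ℝ) := by
      have := hdd k1 k2
      have h' : ((dd k1 k2 * dd k1 k2 : ℕ) : ℝ) ≤ ((pairCop A k1 k2).card : ℝ) := by
        exact_mod_cast this
      rw [pow_two]; exact_mod_cast h'
    have h2 : 2 * ((dd k1 k2 : ℕ) : ℝ) * (θ * n) ≤ (θ * n) ^ 2 + ((dd k1 k2 : ℕ) : ℝ) ^ 2 := by
      nlinarith [sq_nonneg (((dd k1 k2 : ℕ) : ℝ) - θ * n)]
    have h3 : θ * n + ((pairCop A k1 k2).card : ℝ) / (θ * n) =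
        ((θ * n) ^ 2 + ((pairCop A k1 k2).card : ℝ)) / (θ * n) := by
      field_simp
    rw [h3, le_div_iff₀ ht]
    push_cast
    linarith
  have hD2le : (D2 : ℝ) ≤ (n : ℝ) ^ 3 * θ + (N : ℝ) / (θ * n) := by
    have h1 : (D2 : ℝ) = ∑ k1 : Fin n, ∑ k2 : Fin n, ((2 * dd k1 k2 : ℕ) : ℝ) := by
      rw [hD2]; push_cast; rfl
    have h2 : (N : ℝ) = ∑ k1 : Fin n, ∑ k2 : Fin n, ((pairCop A k1 k2).card : ℝ) := by
      rw [hNdef, copNum]; push_cast; rfl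
    rw [h1]
    calc ∑ k1 : Fin n, ∑ k2 : Fin n, ((2 * dd k1 k2 : ℕ) : ℝ)
        ≤ ∑ k1 : Fin n, ∑ k2 : Fin n, (θ * n + ((pairCop A k1 k2).card : ℝ) / (θ * n)) :=
          sum_le_sum fun k1 _ => sum_le_sum fun k2 _ => hpair k1 k2
      _ = (n : ℝ) ^ 3 * θ + (N : ℝ) / (θ * n) := by
          simp only [sum_add_distrib, sum_const, card_univ, Fintype.card_fin, nsmul_eq_mul,
            ← sum_div]
          rw [h2]; ring
  -- the three sums over tuples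
  set BB : (Fin q → Fin n) → ℕ := fun ρ => ∑ a, ∑ b, 2 * dd (ρ a) (ρ b) with hBB
  set Hit : (Fin q → Fin n) → ℕ := fun ρ => ∑ i, (HitSet A (univ.image ρ) i).card with hHit
  set Miss : (Fin q → Fin n) → ℕ := fun ρ => ∑ i, (MissSet A (univ.image ρ) i).card with hMiss
  have hSB : ((∑ ρ, BB ρ : ℕ) : ℝ) * (n : ℝ) ^ 2 ≤ (q : ℝ) ^ 2 * ((n : ℝ) ^ q * D2) := by
    have hz : ∀ k, 2 * dd k k = 0 := by
      intro k
      have := hdd k k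
      rw [pairCop_self, card_empty] at this
      have : dd k k = 0 := by nlinarith
      simp [this]
    have := sum_pairs_le q (fun k1 k2 => 2 * dd k1 k2) hz
    exact_mod_cast this
  have hSH : ((∑ ρ, Hit ρ : ℕ) : ℝ) * n ≤ q * ((n : ℝ) ^ q * N) := by
    have := sum_hit_le A q
    exact_mod_cast this
  have hSM : ((q : ℝ) + 1) * ((∑ ρ, Miss ρ : ℕ) : ℝ) ≤ n * n * (n : ℝ) ^ (q + 1) := by
    have := sum_miss_le A q
    exact_mod_cast this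
  set V : ℝ := ε / 16 * (q : ℝ) ^ 2 * D2 + q * N / n + (n : ℝ) ^ 3 / (q + 1) with hV
  set w : ℝ := ε / 16 * (n : ℝ) ^ 2 with hw
  have hw0 : 0 < w := by positivity
  have : NeZero n := ⟨by omega⟩
  have hsum : ∑ ρ : Fin q → Fin n, (w * (BB ρ : ℝ) + (Hit ρ : ℝ) + (Miss ρ : ℝ)) ≤
      ∑ _ρ : Fin q → Fin n, V := by
    rw [sum_const, card_univ, Fintype.card_fun, Fintype.card_fin, Fintype.card_fin, nsmul_eq_mul]
    simp only [sum_add_distrib, ← mul_sum]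
    have e1 : ∑ ρ : Fin q → Fin n, (BB ρ : ℝ) = ((∑ ρ, BB ρ : ℕ) : ℝ) := by push_cast; rfl
    have e2 : ∑ ρ : Fin q → Fin n, (Hit ρ : ℝ) = ((∑ ρ, Hit ρ : ℕ) : ℝ) := by push_cast; rfl
    have e3 : ∑ ρ : Fin q → Fin n, (Miss ρ : ℝ) = ((∑ ρ, Miss ρ : ℕ) : ℝ) := by push_cast; rfl
    rw [e1, e2, e3]
    have hnq : (0 : ℝ) < (n : ℝ) ^ q := by positivity
    have b1 : w * ((∑ ρ, BB ρ : ℕ) : ℝ) ≤ (n : ℝ) ^ q * (ε / 16 * (q : ℝ) ^ 2 * D2) := by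
      have : w * ((∑ ρ, BB ρ : ℕ) : ℝ) = ε / 16 * (((∑ ρ, BB ρ : ℕ) : ℝ) * (n : ℝ) ^ 2) := by
        rw [hw]; ring
      rw [this]
      have h16 : (0 : ℝ) ≤ ε / 16 := by positivity
      calc ε / 16 * (((∑ ρ, BB ρ : ℕ) : ℝ) * (n : ℝ) ^ 2)
          ≤ ε / 16 * ((q : ℝ) ^ 2 * ((n : ℝ) ^ q * D2)) := mul_le_mul_of_nonneg_left hSB h16
        _ = (n : ℝ) ^ q * (ε / 16 * (q : ℝ) ^ 2 * D2) := by ring
    have b2 : ((∑ ρ, Hit ρ : ℕ) : ℝ) ≤ (n : ℝ) ^ q * (q * N / n) := by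
      have : (n : ℝ) ^ q * (q * N / n) = (q * ((n : ℝ) ^ q * N)) / n := by ring
      rw [this, le_div_iff₀ hn0]
      exact hSH
    have b3 : ((∑ ρ, Miss ρ : ℕ) : ℝ) ≤ (n : ℝ) ^ q * ((n : ℝ) ^ 3 / (q + 1)) := by
      have hq1' : (0 : ℝ) < (q : ℝ) + 1 := by positivity
      have : (n : ℝ) ^ q * ((n : ℝ) ^ 3 / (q + 1)) = (n * n * (n : ℝ) ^ (q + 1)) / (q + 1) := by
        ring
      rw [this, le_div_iff₀ hq1']
      linarith
    rw [Nat.cast_pow, hV]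
    linarith
  obtain ⟨ρ, _, hρle⟩ := exists_le_of_sum_le univ_nonempty hsum
  obtain ⟨B, d, hB, hcost, hinv⟩ := hρ q ρ
  refine ⟨B, hB, ?_⟩
  -- bound on `V`
  have hNn : (N : ℝ) / (θ * n) ≤ 500000 * (1 / 10 ^ 12) * ε ^ 5 * (n : ℝ) ^ 3 := by
    rw [div_le_iff₀ (by positivity)]
    have : 500000 * (1 / 10 ^ 12) * ε ^ 5 * (n : ℝ) ^ 3 * (θ * n) =
        1 / 10 ^ 12 * ε ^ 10 * (n : ℝ) ^ 4 := by
      rw [hθ]; ring
    rw [this]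
    exact hN.le
  have hqN : (q : ℝ) * N / n ≤ q * (1 / 10 ^ 12) * ε ^ 10 * (n : ℝ) ^ 3 := by
    rw [div_le_iff₀ hn0]
    have : (q : ℝ) * (1 / 10 ^ 12) * ε ^ 10 * (n : ℝ) ^ 3 * n =
        q * (1 / 10 ^ 12 * ε ^ 10 * (n : ℝ) ^ 4) := by ring
    rw [this]
    exact mul_le_mul_of_nonneg_left hN.le hq0.le
  have hVle : V ≤ (n : ℝ) ^ 3 * (ε ^ 2 / 64) := by
    have hnum := num_bound hε0 hε1 hq1 hq2
    have hD : (D2 : ℝ) ≤ (n : ℝ) ^ 3 * (ε ^ 5 / 500000 + 500000 * (1 / 10 ^ 12) * ε ^ 5) := by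
      calc (D2 : ℝ) ≤ (n : ℝ) ^ 3 * θ + (N : ℝ) / (θ * n) := hD2le
        _ ≤ (n : ℝ) ^ 3 * θ + 500000 * (1 / 10 ^ 12) * ε ^ 5 * (n : ℝ) ^ 3 := by linarith
        _ = (n : ℝ) ^ 3 * (ε ^ 5 / 500000 + 500000 * (1 / 10 ^ 12) * ε ^ 5) := by rw [hθ]; ring
    have hc : (0 : ℝ) ≤ ε / 16 * (q : ℝ) ^ 2 := by positivity
    have h1 : ε / 16 * (q : ℝ) ^ 2 * D2 ≤
        ε / 16 * (q : ℝ) ^ 2 * ((n : ℝ) ^ 3 * (ε ^ 5 / 500000 + 500000 * (1 / 10 ^ 12) * ε ^ 5)) :=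
      mul_le_mul_of_nonneg_left hD hc
    have hn3 : (0 : ℝ) ≤ (n : ℝ) ^ 3 := by positivity
    have h2 := mul_le_mul_of_nonneg_left hnum hn3
    rw [hV]
    calc ε / 16 * (q : ℝ) ^ 2 * D2 + q * N / n + (n : ℝ) ^ 3 / (q + 1)
        ≤ ε / 16 * (q : ℝ) ^ 2 * ((n : ℝ) ^ 3 * (ε ^ 5 / 500000 + 500000 * (1 / 10 ^ 12) * ε ^ 5))
          + q * (1 / 10 ^ 12) * ε ^ 10 * (n : ℝ) ^ 3 + (n : ℝ) ^ 3 / (q + 1) := by linarith
      _ = (n : ℝ) ^ 3 * (ε / 16 * (q : ℝ) ^ 2 * (ε ^ 5 / 500000 + 500000 * (1 / 10 ^ 12) * ε ^ 5) +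
          q * (1 / 10 ^ 12) * ε ^ 10 + 1 / (q + 1)) := by ring
      _ ≤ (n : ℝ) ^ 3 * (ε ^ 2 / 64) := h2
  -- the cost
  have hBBn : (0 : ℝ) ≤ (BB ρ : ℝ) := Nat.cast_nonneg _
  have hHn : (0 : ℝ) ≤ (Hit ρ : ℝ) := Nat.cast_nonneg _
  have hMn : (0 : ℝ) ≤ (Miss ρ : ℝ) := Nat.cast_nonneg _
  have hBBle : (n : ℝ) * (BB ρ : ℝ) ≤ (n : ℝ) ^ 2 * (ε / 4) := by
    have h1 : w * (BB ρ : ℝ) ≤ (n : ℝ) ^ 3 * (ε ^ 2 / 64) := by linarith
    have h2 : w * (BB ρ : ℝ) = (ε / 16 * n) * ((n : ℝ) * (BB ρ : ℝ)) := by rw [hw]; ring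
    have h3 : (n : ℝ) ^ 3 * (ε ^ 2 / 64) = (ε / 16 * n) * ((n : ℝ) ^ 2 * (ε / 4)) := by ring
    rw [h2, h3] at h1
    exact le_of_mul_le_mul_left h1 (by positivity)
  have hdsum : (∑ i, (d i : ℝ)) ≤ (n : ℝ) ^ 2 * (ε / 8) := by
    have h1 : (∑ i, (d i : ℝ)) ^ 2 ≤ ((univ : Finset (Fin n)).card : ℝ) * ∑ i, (d i : ℝ) ^ 2 :=
      sq_sum_le_card_mul_sum_sq
    rw [card_univ, Fintype.card_fin] at h1
    have h2 : ∑ i, (d i : ℝ) ^ 2 ≤ (Hit ρ : ℝ) + (Miss ρ : ℝ) := by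
      have : ∑ i, d i * d i ≤ Hit ρ + Miss ρ := by
        rw [hHit, hMiss]
        simp only
        rw [← sum_add_distrib]
        exact sum_le_sum fun i _ => hinv i
      have h' : ((∑ i, d i * d i : ℕ) : ℝ) ≤ ((Hit ρ + Miss ρ : ℕ) : ℝ) := by exact_mod_cast this
      push_cast at h'
      simp only [pow_two]
      exact h'
    have h3 : (∑ i, (d i : ℝ)) ^ 2 ≤ ((n : ℝ) ^ 2 * (ε / 8)) ^ 2 := by
      calc (∑ i, (d i : ℝ)) ^ 2 ≤ (n : ℝ) * ∑ i, (d i : ℝ) ^ 2 := h1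
        _ ≤ (n : ℝ) * ((Hit ρ : ℝ) + (Miss ρ : ℝ)) := mul_le_mul_of_nonneg_left h2 hn0.le
        _ ≤ (n : ℝ) * ((n : ℝ) ^ 3 * (ε ^ 2 / 64)) := by
            apply mul_le_mul_of_nonneg_left _ hn0.le
            have : 0 ≤ w * (BB ρ : ℝ) := by positivity
            linarith
        _ = ((n : ℝ) ^ 2 * (ε / 8)) ^ 2 := by ring
    have h4 : (0 : ℝ) ≤ (n : ℝ) ^ 2 * (ε / 8) := by positivity
    exact le_of_sq_le_sq h3 h4 |> fun h => h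
  have hT : ((diffSet A B).card : ℝ) ≤ (n : ℝ) * (BB ρ : ℝ) + 2 * ∑ i, (d i : ℝ) := by
    have h1 : (diffSet A B).card ≤ n * BB ρ + 2 * ∑ i, d i := by
      rw [diffSet_card]
      calc ∑ i, (univ.filter fun c => A i c ≠ B i c).card
          ≤ ∑ i : Fin n, (BB ρ + 2 * d i) := sum_le_sum fun i _ => hcost i
        _ = n * BB ρ + 2 * ∑ i, d i := by
            rw [sum_add_distrib, sum_const, card_univ, Fintype.card_fin, smul_eq_mul]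
            congr 1
            rw [mul_sum]
    have h2 : ((diffSet A B).card : ℝ) ≤ ((n * BB ρ + 2 * ∑ i, d i : ℕ) : ℝ) := by
      exact_mod_cast h1
    push_cast at h2
    exact h2
  have hn2 : (0 : ℝ) < (n : ℝ) ^ 2 := by positivity
  nlinarith

end Vale.Agent.H10.Removal

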