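import Mathlib

/-!
# Counting lemmas for tuples of rows

Marginals of the uniform count on `Fin q → Fin n`, the number of tuples avoiding a set, and a
bound for power sums.
-/

namespace Vale.Agent.H10.Removal

open Finset

variable {n q : ℕ}

theorem card_fiber1 (a : Fin q) (k : Fin n) :
    (univ.filter fun ρ : Fin q → Fin n => ρ a = k).card * n = n ^ q := by
  classical
  have h1 : (univ.filter fun ρ : Fin q → Fin n => ρ a = k) =
      Fintype.piFinset (fun c => if c = a then ({k} : Finset (Fin n)) else univ) := by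
    ext ρ
    simp only [mem_filter, mem_univ, true_and, Fintype.mem_piFinset]
    constructor
    · intro h c
      split_ifs with hc
      · rw [hc, h]; exact mem_singleton_self _
      · exact mem_univ _
    · intro h
      have := h a
      simpa using this
  rw [h1, Fintype.card_piFinset]
  have h2 : ∀ c : Fin q, (if c = a then ({k} : Finset (Fin n)) else univ).card =
      if c = a then 1 else n := by
    intro c; split_ifs <;> simp
  simp_rw [h2]
  rw [prod_ite, prod_const_one, one_mul, prod_const, filter_ne' univ a, card_erase_of_mem (mem_univ a),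
    card_univ, Fintype.card_fin, ← pow_succ]
  congr 1
  have := a.pos
  omega

theorem card_fiber2 {a b : Fin q} (hab : a ≠ b) (k1 k2 : Fin n) :
    (univ.filter fun ρ : Fin q → Fin n => ρ a = k1 ∧ ρ b = k2).card * n ^ 2 = n ^ q := by
  classical
  have h1 : (univ.filter fun ρ : Fin q → Fin n => ρ a = k1 ∧ ρ b = k2) =
      Fintype.piFinset (fun c => if c = a then ({k1} : Finset (Fin n)) else
        if c = b then {k2} else univ) := by
    ext ρ
    simp only [mem_filter, mem_univ, true_and, Fintype.mem_piFinset]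
    constructor
    · rintro ⟨h, h'⟩ c
      split_ifs with hc hc'
      · rw [hc, h]; exact mem_singleton_self _
      · rw [hc', h']; exact mem_singleton_self _
      · exact mem_univ _
    · intro h
      have ha := h a
      have hb := h b
      have hba : b ≠ a := fun h => hab h.symm
      simp only [if_true] at ha
      simp only [hba, if_false, if_true] at hb
      exact ⟨by simpa using ha, by simpa using hb⟩
  rw [h1, Fintype.card_piFinset]
  have h2 : ∀ c : Fin q, (if c = a then ({k1} : Finset (Fin n)) else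
      if c = b then {k2} else univ).card = if c = a then 1 else if c = b then 1 else n := by
    intro c; split_ifs <;> simp
  simp_rw [h2]
  have hbmem : b ∈ (univ : Finset (Fin q)).erase a := mem_erase.mpr ⟨fun h => hab h.symm, mem_univ _⟩
  rw [← mul_prod_erase univ _ (mem_univ a), ← mul_prod_erase _ _ hbmem]
  have hba : b ≠ a := fun h => hab h.symm
  simp only [if_true, hba, if_false, one_mul]
  have h3 : ∀ c ∈ ((univ : Finset (Fin q)).erase a).erase b,
      (if c = a then 1 else if c = b then 1 else n) = n := by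
    intro c hc
    rw [mem_erase, mem_erase] at hc
    simp [hc.1, hc.2.1]
  rw [prod_congr rfl h3, prod_const, card_erase_of_mem hbmem, card_erase_of_mem (mem_univ a),
    card_univ, Fintype.card_fin, ← pow_add]
  congr 1
  have h4 : 2 ≤ q := by
    have ha := a.isLt
    have hb := b.isLt
    have : (a : ℕ) ≠ b := fun h => hab (Fin.ext h)
    omega
  omega

theorem marg1 (a : Fin q) (f : Fin n → ℕ) :
    (∑ ρ : Fin q → Fin n, f (ρ a)) * n = n ^ q * ∑ k, f k := by
  classical
  have h1 : ∑ ρ : Fin q → Fin n, f (ρ a) =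
      ∑ k, (univ.filter fun ρ : Fin q → Fin n => ρ a = k).card * f k := by
    rw [← sum_fiberwise univ (fun ρ : Fin q → Fin n => ρ a) (fun ρ => f (ρ a))]
    apply sum_congr rfl
    intro k _
    rw [sum_congr rfl (fun ρ hρ => by rw [(mem_filter.mp hρ).2] : ∀ ρ ∈ univ.filter
      (fun ρ : Fin q → Fin n => ρ a = k), f (ρ a) = f k), sum_const, smul_eq_mul]
  rw [h1, sum_mul, mul_sum]
  apply sum_congr rfl
  intro k _
  rw [mul_comm _ (f k), mul_assoc, card_fiber1, mul_comm]

theorem marg2 {a b : Fin q} (hab : a ≠ b) (f : Fin n → Fin n → ℕ) :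
    (∑ ρ : Fin q → Fin n, f (ρ a) (ρ b)) * n ^ 2 = n ^ q * ∑ k1, ∑ k2, f k1 k2 := by
  classical
  have h1 : ∑ ρ : Fin q → Fin n, f (ρ a) (ρ b) =
      ∑ k : Fin n × Fin n, (univ.filter fun ρ : Fin q → Fin n => ρ a = k.1 ∧ ρ b = k.2).card *
        f k.1 k.2 := by
    rw [← sum_fiberwise univ (fun ρ : Fin q → Fin n => (ρ a, ρ b)) (fun ρ => f (ρ a) (ρ b))]
    apply sum_congr rfl
    intro k _
    have h2 : (univ.filter fun ρ : Fin q → Fin n => (ρ a, ρ b) = k) =
        univ.filter fun ρ : Fin q → Fin n => ρ a = k.1 ∧ ρ b = k.2 := by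
      ext ρ
      simp only [mem_filter, mem_univ, true_and, Prod.ext_iff]
    rw [h2, sum_congr rfl (fun ρ hρ => by
      rw [(mem_filter.mp hρ).2.1, (mem_filter.mp hρ).2.2] : ∀ ρ ∈ univ.filter
      (fun ρ : Fin q → Fin n => ρ a = k.1 ∧ ρ b = k.2), f (ρ a) (ρ b) = f k.1 k.2), sum_const,
      smul_eq_mul]
  rw [h1, sum_mul, ← Fintype.sum_prod_type' (fun k1 k2 => f k1 k2), mul_sum]
  apply sum_congr rfl
  intro k _
  rw [mul_comm _ (f k.1 k.2), mul_assoc, card_fiber2 hab, mul_comm]

theorem card_avoid (Z : Finset (Fin n)) :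
    (univ.filter fun ρ : Fin q → Fin n => ∀ a, ρ a ∉ Z).card = (n - Z.card) ^ q := by
  classical
  have h1 : (univ.filter fun ρ : Fin q → Fin n => ∀ a, ρ a ∉ Z) =
      Fintype.piFinset (fun _ : Fin q => Zᶜ) := by
    ext ρ
    simp only [mem_filter, mem_univ, true_and, Fintype.mem_piFinset, mem_compl]
  rw [h1, Fintype.card_piFinset, prod_const, card_compl, card_univ, Fintype.card_fin,
    Fintype.card_fin]

theorem bern (q n : ℕ) : n ^ (q + 1) + (q + 1) * n ^ q ≤ (n + 1) ^ (q + 1) := by
  induction q with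
  | zero => simp
  | succ q ih =>
    have h1 : (n + 1) ^ (q + 1 + 1) = (n + 1) * (n + 1) ^ (q + 1) := by ring
    have h2 : (n + 1) * (n ^ (q + 1) + (q + 1) * n ^ q) ≤ (n + 1) * (n + 1) ^ (q + 1) :=
      Nat.mul_le_mul_left _ ih
    have h3 : n ^ (q + 1 + 1) + (q + 1 + 1) * n ^ (q + 1) ≤
        (n + 1) * (n ^ (q + 1) + (q + 1) * n ^ q) := by
      have : (n + 1) * (n ^ (q + 1) + (q + 1) * n ^ q) =
          n ^ (q + 1 + 1) + (q + 1 + 1) * n ^ (q + 1) + (q + 1) * n ^ q := by ring
      omega
    omega

theorem powsum_le (q n : ℕ) : (q + 1) * ∑ j ∈ range n, j ^ q ≤ n ^ (q + 1) := by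
  induction n with
  | zero => simp
  | succ n ih =>
    rw [sum_range_succ, mul_add]
    have h := bern q n
    omega

end Vale.Agent.H10.Removal
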