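import Vale.Agent.H10.Removal.Sample
import Vale.Agent.H10.Removal.Avg

/-!
# Averaging the repair cost over all tuples of sampled rows
-/

namespace Vale.Agent.H10.Removal

open Finset

variable {n : ℕ}

theorem sum_pairs_le (q : ℕ) (g : Fin n → Fin n → ℕ) (hg : ∀ k, g k k = 0) :
    (∑ ρ : Fin q → Fin n, ∑ a, ∑ b, g (ρ a) (ρ b)) * n ^ 2 ≤
      q ^ 2 * (n ^ q * ∑ k1, ∑ k2, g k1 k2) := by
  have h1 : ∑ ρ : Fin q → Fin n, ∑ a, ∑ b, g (ρ a) (ρ b) =
      ∑ a : Fin q, ∑ b : Fin q, ∑ ρ : Fin q → Fin n, g (ρ a) (ρ b) := by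
    rw [sum_comm]
    apply sum_congr rfl
    intro a _
    rw [sum_comm]
  rw [h1, sum_mul]
  have h2 : ∀ a : Fin q, (∑ b : Fin q, ∑ ρ : Fin q → Fin n, g (ρ a) (ρ b)) * n ^ 2 ≤
      q * (n ^ q * ∑ k1, ∑ k2, g k1 k2) := by
    intro a
    rw [sum_mul]
    have h3 : ∀ b : Fin q, (∑ ρ : Fin q → Fin n, g (ρ a) (ρ b)) * n ^ 2 ≤
        n ^ q * ∑ k1, ∑ k2, g k1 k2 := by
      intro b
      by_cases hab : a = b
      · subst hab
        simp [hg]
      · exact (marg2 hab g).le
    calc ∑ b : Fin q, (∑ ρ : Fin q → Fin n, g (ρ a) (ρ b)) * n ^ 2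
        ≤ ∑ _b : Fin q, n ^ q * ∑ k1, ∑ k2, g k1 k2 := sum_le_sum fun b _ => h3 b
      _ = q * (n ^ q * ∑ k1, ∑ k2, g k1 k2) := by simp
  calc ∑ a : Fin q, (∑ b : Fin q, ∑ ρ : Fin q → Fin n, g (ρ a) (ρ b)) * n ^ 2
      ≤ ∑ _a : Fin q, q * (n ^ q * ∑ k1, ∑ k2, g k1 k2) := sum_le_sum fun a _ => h2 a
    _ = q ^ 2 * (n ^ q * ∑ k1, ∑ k2, g k1 k2) := by simp; ring

theorem pairCop_self (A : Fin n → Fin n → Bool) (k : Fin n) : pairCop A k k = ∅ := by
  rw [pairCop, filter_eq_empty_iff]
  rintro p _ ⟨h, _⟩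
  exact lt_irrefl _ h

/-- the hit pairs, summed over all tuples -/
theorem sum_hit_le (A : Fin n → Fin n → Bool) (q : ℕ) :
    (∑ ρ : Fin q → Fin n, ∑ i, (HitSet A (univ.image ρ) i).card) * n ≤
      q * (n ^ q * ∑ k1, ∑ k2, (pairCop A k1 k2).card) := by
  classical
  have h1 : ∀ ρ : Fin q → Fin n, ∑ i, (HitSet A (univ.image ρ) i).card ≤
      ∑ a : Fin q, ∑ i, (pairCop A i (ρ a)).card := by
    intro ρ
    rw [sum_comm]
    apply sum_le_sum
    intro i _
    have hsub : HitSet A (univ.image ρ) i ⊆ univ.biUnion fun a => pairCop A i (ρ a) := by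
      intro p hp
      rw [HitSet, mem_filter] at hp
      obtain ⟨_, k, hk, hcop⟩ := hp
      obtain ⟨a, _, rfl⟩ := mem_image.mp hk
      rw [mem_biUnion]
      exact ⟨a, mem_univ _, by rw [pairCop, mem_filter]; exact ⟨mem_univ _, hcop⟩⟩
    exact le_trans (card_le_card hsub) card_biUnion_le
  have h2 : ∑ ρ : Fin q → Fin n, ∑ i, (HitSet A (univ.image ρ) i).card ≤
      ∑ a : Fin q, ∑ ρ : Fin q → Fin n, ∑ i, (pairCop A i (ρ a)).card := by
    calc ∑ ρ : Fin q → Fin n, ∑ i, (HitSet A (univ.image ρ) i).card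
        ≤ ∑ ρ : Fin q → Fin n, ∑ a : Fin q, ∑ i, (pairCop A i (ρ a)).card :=
          sum_le_sum fun ρ _ => h1 ρ
      _ = _ := sum_comm
  refine le_trans (Nat.mul_le_mul_right n h2) ?_
  rw [sum_mul]
  have h3 : ∀ a : Fin q, (∑ ρ : Fin q → Fin n, ∑ i, (pairCop A i (ρ a)).card) * n =
      n ^ q * ∑ k1, ∑ k2, (pairCop A k1 k2).card := by
    intro a
    rw [marg1 a (fun k => ∑ i, (pairCop A i k).card), sum_comm]
  rw [sum_congr rfl (fun a _ => h3 a)]
  simp

/-- the missed pairs, summed over all tuples -/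
theorem sum_miss_le (A : Fin n → Fin n → Bool) (q : ℕ) :
    (q + 1) * (∑ ρ : Fin q → Fin n, ∑ i, (MissSet A (univ.image ρ) i).card) ≤
      n * n * n ^ (q + 1) := by
  classical
  -- the rows below `i` reading `0 1` on the pair `p`
  set Z : Fin n → Fin n × Fin n → Finset (Fin n) := fun i p =>
    univ.filter fun k => i ≤ k ∧ A k p.2 = false ∧ A k p.1 = true with hZ
  set T : Fin n → Finset (Fin n × Fin n) := fun i =>
    univ.filter fun p => p.2 < p.1 ∧ A i p.2 = false ∧ A i p.1 = true with hT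
  have hMiss : ∀ (ρ : Fin q → Fin n) (i : Fin n), MissSet A (univ.image ρ) i =
      (T i).filter fun p => ∀ a, ρ a ∉ Z i p := by
    intro ρ i
    ext p
    simp only [MissSet, hT, hZ, mem_filter, mem_univ, true_and, mem_image, forall_exists_index,
      forall_apply_eq_imp_iff, not_and, and_assoc]
  have h1 : ∑ ρ : Fin q → Fin n, ∑ i, (MissSet A (univ.image ρ) i).card =
      ∑ i, ∑ p ∈ T i, (n - (Z i p).card) ^ q := by
    rw [sum_comm]
    apply sum_congr rfl
    intro i _
    simp_rw [hMiss, card_filter]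
    rw [sum_comm]
    apply sum_congr rfl
    intro p _
    rw [← card_filter, card_avoid]
  have h2 : ∑ i, ∑ p ∈ T i, (n - (Z i p).card) ^ q =
      ∑ p : Fin n × Fin n, ∑ i ∈ univ.filter (fun i => p ∈ T i), (n - (Z i p).card) ^ q := by
    apply sum_comm'
    intro i p
    simp
  rw [h1, h2, mul_sum]
  have h3 : ∀ p : Fin n × Fin n,
      (q + 1) * ∑ i ∈ univ.filter (fun i => p ∈ T i), (n - (Z i p).card) ^ q ≤ n ^ (q + 1) := by
    intro p
    refine le_trans ?_ (powsum_le q n)
    apply Nat.mul_le_mul_left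
    have hmemZ : ∀ i ∈ univ.filter (fun i => p ∈ T i), i ∈ Z i p := by
      intro i hi
      rw [mem_filter] at hi
      have := hi.2
      simp only [hT, mem_filter, mem_univ, true_and] at this
      simp only [hZ, mem_filter, mem_univ, true_and]
      exact ⟨le_refl _, this.2.1, this.2.2⟩
    have hlt : ∀ i ∈ univ.filter (fun i => p ∈ T i), ∀ i' ∈ univ.filter (fun i => p ∈ T i),
        i < i' → (Z i' p).card < (Z i p).card := by
      intro i hi i' _ hii
      apply card_lt_card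
      rw [ssubset_iff_of_subset]
      · refine ⟨i, hmemZ i hi, ?_⟩
        simp only [hZ, mem_filter, mem_univ, true_and, not_and]
        intro h
        exact absurd h (not_le.mpr hii)
      · intro k hk
        simp only [hZ, mem_filter, mem_univ, true_and] at hk ⊢
        exact ⟨le_trans hii.le hk.1, hk.2⟩
    have hcardle : ∀ i, (Z i p).card ≤ n := by
      intro i
      have := card_le_univ (Z i p)
      simpa using this
    have hinj : Set.InjOn (fun i => n - (Z i p).card)
        (univ.filter (fun i => p ∈ T i) : Finset (Fin n)) := by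
      intro i hi i' hi' heq
      simp only at heq
      rcases lt_trichotomy i i' with h | h | h
      · have := hlt i hi i' hi' h
        have h1 := hcardle i
        have h2 := hcardle i'
        omega
      · exact h
      · have := hlt i' hi' i hi h
        have h1 := hcardle i
        have h2 := hcardle i'
        omega
    rw [← sum_image (f := fun j => j ^ q) hinj]
    apply sum_le_sum_of_subset
    intro j hj
    rw [mem_image] at hj
    obtain ⟨i, hi, rfl⟩ := hj
    rw [mem_range]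
    have h1 : 0 < (Z i p).card := card_pos.mpr ⟨i, hmemZ i hi⟩
    have h2 : 0 < n := i.pos
    omega
  calc ∑ p : Fin n × Fin n,
        (q + 1) * ∑ i ∈ univ.filter (fun i => p ∈ T i), (n - (Z i p).card) ^ q
      ≤ ∑ _p : Fin n × Fin n, n ^ (q + 1) := sum_le_sum fun p _ => h3 p
    _ = n * n * n ^ (q + 1) := by simp

end Vale.Agent.H10.Removal
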