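import Vale.Agent.H10.Removal.Sort

/-!
# The pattern `[[1, 1], [1, 0]]`: repairing a matrix from a sample of rows

`IsCopG A i j c c'` says that rows `i < j` and columns `c < c'` of the binary matrix `A` carry a
copy of the pattern `[[1, 1], [1, 0]]`.  Given a set `R` of sampled rows and a set `G` of columns
such that the sampled rows carry no copy on columns of `G`, we build a copy-free matrix `B`
and bound the number of entries where it differs from `A`.

Two good columns are linked at time `r` when a sampled row at or above `r` has ones in both.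
The rows of `B` are sets of columns reachable from one column through links.
-/

namespace Vale.Agent.H10.Removal

open Finset

variable {n : ℕ}

/-- rows `i < j` and columns `c < c'` carry a copy of the pattern `[[1, 1], [1, 0]]` -/
def IsCopG (A : Fin n → Fin n → Bool) (i j c c' : Fin n) : Prop :=
  i < j ∧ c < c' ∧ A i c = true ∧ A i c' = true ∧ A j c = true ∧ A j c' = false

instance (A : Fin n → Fin n → Bool) (i j c c' : Fin n) : Decidable (IsCopG A i j c c') := by
  unfold IsCopG; infer_instance

/-- no copy of the pattern `[[1, 1], [1, 0]]` -/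
def FreeG (A : Fin n → Fin n → Bool) : Prop := ∀ i j c c', ¬ IsCopG A i j c c'

/-- the copies carried by a fixed pair of rows -/
def pairCopG (A : Fin n → Fin n → Bool) (i j : Fin n) : Finset (Fin n × Fin n) :=
  univ.filter fun p => IsCopG A i j p.1 p.2

/-- two good columns `y < y'` with ones in a common sampled row at or above row `r` -/
def Link (A : Fin n → Fin n → Bool) (R G : Finset (Fin n)) (r y y' : Fin n) : Prop :=
  y < y' ∧ y ∈ G ∧ y' ∈ G ∧ ∃ k ∈ R, k ≤ r ∧ A k y = true ∧ A k y' = true

/-- reachability through links -/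
def Reach (A : Fin n → Fin n → Bool) (R G : Finset (Fin n)) (r : Fin n) :
    Fin n → Fin n → Prop :=
  Relation.ReflTransGen (Link A R G r)

variable {A : Fin n → Fin n → Bool} {R G : Finset (Fin n)}

theorem Link.mono {r r' y y' : Fin n} (hr : r ≤ r') (h : Link A R G r y y') :
    Link A R G r' y y' := by
  obtain ⟨h1, h2, h3, k, hk, hkr, h4, h5⟩ := h
  exact ⟨h1, h2, h3, k, hk, le_trans hkr hr, h4, h5⟩

theorem Reach.mono {r r' x z : Fin n} (hr : r ≤ r') (h : Reach A R G r x z) :
    Reach A R G r' x z := by
  induction h with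
  | refl => exact Relation.ReflTransGen.refl
  | tail _ hl ih => exact Relation.ReflTransGen.tail ih (Link.mono hr hl)

theorem Reach.le {r x z : Fin n} (h : Reach A R G r x z) : x ≤ z := by
  induction h with
  | refl => exact le_refl _
  | tail _ hl ih => exact le_trans ih hl.1.le

/-- two links out of the same column are comparable -/
theorem link_link (hfree : ∀ k1 ∈ R, ∀ k2 ∈ R, ∀ c ∈ G, ∀ c' ∈ G, ¬ IsCopG A k1 k2 c c')
    {r x y y' : Fin n} (h1 : Link A R G r x y) (h2 : Link A R G r x y') (hyy : y < y') :
    Link A R G r y y' := by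
  obtain ⟨hxy, hxG, hyG, k1, hk1, hk1r, a1, a2⟩ := h1
  obtain ⟨hxy', _, hy'G, k2, hk2, hk2r, b1, b2⟩ := h2
  refine ⟨hyy, hyG, hy'G, ?_⟩
  rcases lt_trichotomy k1 k2 with h | h | h
  · refine ⟨k2, hk2, hk2r, ?_, b2⟩
    by_contra hcon
    have hf : A k2 y = false := by simpa using hcon
    exact hfree k1 hk1 k2 hk2 x hxG y hyG ⟨h, hxy, a1, a2, b1, hf⟩
  · subst h
    exact ⟨k1, hk1, hk1r, a2, b2⟩
  · refine ⟨k1, hk1, hk1r, a2, ?_⟩
    by_contra hcon
    have hf : A k1 y' = false := by simpa using hcon
    exact hfree k2 hk2 k1 hk1 x hxG y' hy'G ⟨h, hxy', b1, b2, a1, hf⟩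

/-- the columns reachable from `x` form a chain -/
theorem reach_linear (hfree : ∀ k1 ∈ R, ∀ k2 ∈ R, ∀ c ∈ G, ∀ c' ∈ G, ¬ IsCopG A k1 k2 c c')
    {r : Fin n} (x : Fin n) :
    ∀ z w, Reach A R G r x z → Reach A R G r x w → z ≤ w → Reach A R G r z w := by
  induction x using WellFoundedGT.induction with
  | ind x ih =>
    intro z w hz hw hzw
    rcases Relation.ReflTransGen.cases_head hz with rfl | ⟨y, hxy, hyz⟩
    · exact hw
    · rcases Relation.ReflTransGen.cases_head hw with rfl | ⟨u, hxu, huw⟩
      · have h1 : x ≤ z := Reach.le hz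
        have h2 : z = x := le_antisymm hzw h1
        rw [h2]
        exact Relation.ReflTransGen.refl
      · rcases lt_trichotomy y u with h | h | h
        · have hl := link_link hfree hxy hxu h
          exact ih y hxy.1 z w hyz (Relation.ReflTransGen.head hl huw) hzw
        · subst h
          exact ih y hxy.1 z w hyz huw hzw
        · have hl := link_link hfree hxu hxy h
          exact ih u hxu.1 z w (Relation.ReflTransGen.head hl hyz) huw hzw

/-- a sampled row containing `x` contains everything reachable from `x` at its own time -/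
theorem reach_row (hfree : ∀ k1 ∈ R, ∀ k2 ∈ R, ∀ c ∈ G, ∀ c' ∈ G, ¬ IsCopG A k1 k2 c c')
    {k x z : Fin n} (hk : k ∈ R) (hx : A k x = true) (h : Reach A R G k x z) :
    A k z = true := by
  induction h with
  | refl => exact hx
  | @tail b c _ hl ih =>
    obtain ⟨hbc, hbG, hcG, k', hk', hk'k, a1, a2⟩ := hl
    rcases lt_or_eq_of_le hk'k with h | h
    · by_contra hcon
      have hf : A k c = false := by simpa using hcon
      exact hfree k' hk' k hk b hbG c hcG ⟨h, hbc, a1, a2, ih, hf⟩
    · rw [← h]; exact a2

/-- pairs `(x, z)` of columns, `x < z`, on which row `i` reads `1 0` and no sampled row at or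
below `i` does -/
def HitG (A : Fin n → Fin n → Bool) (R : Finset (Fin n)) (i : Fin n) : Finset (Fin n × Fin n) :=
  univ.filter fun p => p.1 < p.2 ∧ A i p.1 = true ∧ A i p.2 = false ∧
    ∀ k ∈ R, i ≤ k → ¬ (A k p.1 = true ∧ A k p.2 = false)

/-- pairs `(x, c)` of columns, `x < c`, on which row `i` reads `1 1` and no sampled row at or
above `i` does -/
def MissG (A : Fin n → Fin n → Bool) (R : Finset (Fin n)) (i : Fin n) : Finset (Fin n × Fin n) :=
  univ.filter fun p => p.1 < p.2 ∧ A i p.1 = true ∧ A i p.2 = true ∧
    ∀ k ∈ R, k ≤ i → ¬ (A k p.1 = true ∧ A k p.2 = true)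

/-- the repaired row: either empty or the set of columns reachable from one good column -/
theorem exists_rowG (A : Fin n → Fin n → Bool) (R G : Finset (Fin n))
    (hfree : ∀ k1 ∈ R, ∀ k2 ∈ R, ∀ c ∈ G, ∀ c' ∈ G, ¬ IsCopG A k1 k2 c c') (i : Fin n) :
    ∃ (S : Finset (Fin n)) (d : ℕ),
      (S = ∅ ∨ ∃ x, ∀ z, z ∈ S ↔ Reach A R G i x z) ∧
      (univ.filter fun c => A i c ≠ decide (c ∈ S)).card ≤ Gᶜ.card + 2 * d ∧
      d * d ≤ (HitG A R i).card + (MissG A R i).card := by
  classical
  set P : Finset (Fin n) := G.filter fun c => A i c = true with hP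
  set path : Fin n → Finset (Fin n) := fun x => univ.filter fun z => Reach A R G i x z with hpath
  set E : Fin n → Finset (Fin n) := fun x => univ.filter fun c =>
    x < c ∧ ((c ∈ P ∧ ¬ Reach A R G i x c) ∨ (Reach A R G i x c ∧ A i c = false)) with hE
  set U : Finset (Fin n × Fin n) := HitG A R i ∪ MissG A R i with hU
  set V : ℕ := (HitG A R i).card + (MissG A R i).card with hV
  -- the violations of `x` are charged to pairs `(x, c)`
  have hEU : ∀ x ∈ P, (E x).card ≤ (U.filter fun p => p.1 = x).card := by
    intro x hx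
    rw [hP, mem_filter] at hx
    obtain ⟨hxG, hxA⟩ := hx
    apply card_le_card_of_injOn (fun c => (x, c))
    · intro c hc
      have hc' : c ∈ E x := hc
      rw [hE, mem_filter] at hc'
      obtain ⟨_, hxc, hor⟩ := hc'
      rw [mem_coe, mem_filter]
      refine ⟨?_, rfl⟩
      rcases hor with ⟨hcP, hnr⟩ | ⟨hr, hcA⟩
      · rw [hP, mem_filter] at hcP
        rw [hU]
        apply mem_union_right
        rw [MissG, mem_filter]
        refine ⟨mem_univ _, hxc, hxA, hcP.2, ?_⟩
        rintro k hkR hki ⟨h1, h2⟩
        exact hnr (Relation.ReflTransGen.single ⟨hxc, hxG, hcP.1, k, hkR, hki, h1, h2⟩)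
      · rw [hU]
        apply mem_union_left
        rw [HitG, mem_filter]
        refine ⟨mem_univ _, hxc, hxA, hcA, ?_⟩
        rintro k hkR hik ⟨h1, h2⟩
        have := reach_row hfree hkR h1 (Reach.mono hik hr)
        rw [h2] at this
        exact Bool.false_ne_true this
    · intro c _ c' _ h
      exact (Prod.mk.inj h).2
  have hsum : ∑ x ∈ P, (E x).card ≤ V := by
    calc ∑ x ∈ P, (E x).card ≤ ∑ x ∈ P, (U.filter fun p => p.1 = x).card :=
          sum_le_sum hEU
      _ ≤ ∑ x ∈ (univ : Finset (Fin n)), (U.filter fun p => p.1 = x).card :=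
          sum_le_sum_of_subset (subset_univ _)
      _ = U.card := (card_eq_sum_card_fiberwise (f := Prod.fst) (fun _ _ => mem_univ _)).symm
      _ ≤ V := card_union_le _ _
  -- the difference for a start `x`
  have hdiff : ∀ x ∈ P, (univ.filter fun c => A i c ≠ decide (c ∈ path x)) ⊆
      Gᶜ ∪ ((P.filter fun c => c < x) ∪ E x) := by
    intro x hx c hc
    rw [hP, mem_filter] at hx
    obtain ⟨hxG, hxA⟩ := hx
    rw [mem_filter] at hc
    have hc2 := hc.2
    by_cases hcG : c ∈ G
    · apply mem_union_right
      by_cases hA : A i c = true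
      · have hnr : ¬ Reach A R G i x c := by
          intro hr
          apply hc2
          rw [hA]
          have : c ∈ path x := by rw [hpath, mem_filter]; exact ⟨mem_univ _, hr⟩
          simp [this]
        have hne : c ≠ x := by
          rintro rfl
          exact hnr Relation.ReflTransGen.refl
        rcases lt_or_gt_of_ne hne with hlt | hgt
        · apply mem_union_left
          rw [mem_filter, hP, mem_filter]
          exact ⟨⟨hcG, hA⟩, hlt⟩
        · apply mem_union_right
          rw [hE, mem_filter]
          refine ⟨mem_univ _, hgt, Or.inl ⟨?_, hnr⟩⟩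
          rw [hP, mem_filter]
          exact ⟨hcG, hA⟩
      · have hA' : A i c = false := by simpa using hA
        have hr : Reach A R G i x c := by
          by_contra hnr
          apply hc2
          rw [hA']
          have : c ∉ path x := by
            rw [hpath, mem_filter]
            exact fun h => hnr h.2
          simp [this]
        have hle : x ≤ c := Reach.le hr
        have hne : x ≠ c := by
          rintro rfl
          rw [hxA] at hA'
          exact Bool.false_ne_true hA'.symm
        apply mem_union_right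
        rw [hE, mem_filter]
        exact ⟨mem_univ _, lt_of_le_of_ne hle hne, Or.inr ⟨hr, hA'⟩⟩
    · apply mem_union_left
      rw [mem_compl]; exact hcG
  -- the choice of the start
  set s : ℕ := Nat.sqrt V with hs
  have hs1 : s * s ≤ V := Nat.sqrt_le V
  have hs2 : V < (s + 1) * (s + 1) := Nat.lt_succ_sqrt V
  set T : Finset (Fin n) := P.filter fun x => (E x).card ≤ s with hT
  have hPT : (P \ T).card ≤ s := by
    by_contra hcon
    have h1 : s + 1 ≤ (P \ T).card := by omega
    have h2 : (P \ T).card * (s + 1) ≤ ∑ x ∈ P \ T, (E x).card := by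
      rw [← smul_eq_mul, ← sum_const]
      apply sum_le_sum
      intro x hx
      have hx1 := (mem_sdiff.mp hx).1
      have hx2 := (mem_sdiff.mp hx).2
      have : ¬ (E x).card ≤ s := fun h => hx2 (mem_filter.mpr ⟨hx1, h⟩)
      omega
    have h3 : ∑ x ∈ P \ T, (E x).card ≤ ∑ x ∈ P, (E x).card :=
      sum_le_sum_of_subset sdiff_subset
    have h4 : (s + 1) * (s + 1) ≤ (P \ T).card * (s + 1) := Nat.mul_le_mul_right _ h1
    omega
  by_cases hTne : T.Nonempty
  · set x := T.min' hTne with hx
    have hxT : x ∈ T := T.min'_mem hTne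
    have hxP : x ∈ P := (mem_filter.mp hxT).1
    have hxE : (E x).card ≤ s := (mem_filter.mp hxT).2
    refine ⟨path x, s, Or.inr ⟨x, ?_⟩, ?_, hs1⟩
    · intro z
      rw [hpath, mem_filter]
      exact ⟨fun h => h.2, fun h => ⟨mem_univ _, h⟩⟩
    · have hsub : (P.filter fun c => c < x) ⊆ P \ T := by
        intro c hc
        rw [mem_filter] at hc
        rw [mem_sdiff]
        refine ⟨hc.1, fun hcT => ?_⟩
        have := T.min'_le c hcT
        exact absurd hc.2 (not_lt.mpr this)
      calc (univ.filter fun c => A i c ≠ decide (c ∈ path x)).card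
          ≤ (Gᶜ ∪ ((P.filter fun c => c < x) ∪ E x)).card := card_le_card (hdiff x hxP)
        _ ≤ Gᶜ.card + ((P.filter fun c => c < x) ∪ E x).card := card_union_le _ _
        _ ≤ Gᶜ.card + ((P.filter fun c => c < x).card + (E x).card) := by
            gcongr; exact card_union_le _ _
        _ ≤ Gᶜ.card + ((P \ T).card + (E x).card) := by
            gcongr
        _ ≤ Gᶜ.card + 2 * s := by omega
  · have hT0 : T = ∅ := not_nonempty_iff_eq_empty.mp hTne
    refine ⟨∅, s, Or.inl rfl, ?_, hs1⟩
    have hsub : (univ.filter fun c => A i c ≠ decide (c ∈ (∅ : Finset (Fin n)))) ⊆ Gᶜ ∪ (P \ T) := by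
      intro c hc
      rw [mem_filter] at hc
      have hA : A i c = true := by
        have := hc.2
        simpa using this
      by_cases hcG : c ∈ G
      · apply mem_union_right
        rw [hT0, sdiff_empty, hP, mem_filter]
        exact ⟨hcG, hA⟩
      · apply mem_union_left
        rw [mem_compl]; exact hcG
    calc (univ.filter fun c => A i c ≠ decide (c ∈ (∅ : Finset (Fin n)))).card
        ≤ (Gᶜ ∪ (P \ T)).card := card_le_card hsub
      _ ≤ Gᶜ.card + (P \ T).card := card_union_le _ _
      _ ≤ Gᶜ.card + 2 * s := by omega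

theorem exists_freeG_of_sample (A : Fin n → Fin n → Bool) (R G : Finset (Fin n))
    (hfree : ∀ k1 ∈ R, ∀ k2 ∈ R, ∀ c ∈ G, ∀ c' ∈ G, ¬ IsCopG A k1 k2 c c') :
    ∃ (B : Fin n → Fin n → Bool) (d : Fin n → ℕ), FreeG B ∧
      (∀ i, (univ.filter fun c => A i c ≠ B i c).card ≤ Gᶜ.card + 2 * d i) ∧
      (∀ i, d i * d i ≤ (HitG A R i).card + (MissG A R i).card) := by
  classical
  choose S d hS hcost hd using exists_rowG A R G hfree
  refine ⟨fun i c => decide (c ∈ S i), d, ?_, hcost, hd⟩
  rintro i j c c' ⟨hij, hcc, h1, h2, h3, h4⟩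
  simp only [decide_eq_true_eq, decide_eq_false_iff_not] at h1 h2 h3 h4
  rcases hS i with h0 | ⟨x, hx⟩
  · rw [h0] at h1
    exact absurd h1 (notMem_empty c)
  · rcases hS j with h0 | ⟨x', hx'⟩
    · rw [h0] at h3
      exact absurd h3 (notMem_empty c)
    · have r1 : Reach A R G i x c := (hx c).mp h1
      have r2 : Reach A R G i x c' := (hx c').mp h2
      have r3 : Reach A R G i c c' := reach_linear hfree x c c' r1 r2 hcc.le
      have r4 : Reach A R G j c c' := Reach.mono hij.le r3
      have r5 : Reach A R G j x' c := (hx' c).mp h3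
      exact h4 ((hx' c').mpr (Relation.ReflTransGen.trans r5 r4))

end Vale.Agent.H10.Removal
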