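import Vale.Agent.H10.Removal.GammaSample
import Vale.Agent.H10.Removal.Count

/-!
# The pattern `[[1, 1], [1, 0]]`: averaging the repair cost over all tuples of sampled rows
-/

namespace Vale.Agent.H10.Removal

open Finset

variable {n : ℕ}

/-- A row `i` of type `T` on the pair `p` is counted for the tuple `ρ` when no sampled row
`le`-beyond `i` has type `T` on `p`.  Summed over all tuples and rows, the count is at most
`n² n^(q+1) / (q+1)`. -/
theorem sum_avoid_le (le : Fin n → Fin n → Prop) [DecidableRel le]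
    (hrefl : ∀ i, le i i) (htrans : ∀ i j k, le i j → le j k → le i k)
    (hanti : ∀ i j, le i j → le j i → i = j) (htot : ∀ i j, le i j ∨ le j i)
    (T : Fin n → Fin n × Fin n → Prop) [∀ i, DecidablePred (T i)] (q : ℕ) :
    (q + 1) * (∑ ρ : Fin q → Fin n, ∑ i,
      (univ.filter fun p => T i p ∧ ∀ a, ¬ (le i (ρ a) ∧ T (ρ a) p)).card) ≤
      n * n * n ^ (q + 1) := by
  classical
  set Z : Fin n → Fin n × Fin n → Finset (Fin n) := fun i p =>
    univ.filter fun k => le i k ∧ T k p with hZ
  set TT : Fin n → Finset (Fin n × Fin n) := fun i => univ.filter fun p => T i p with hTT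
  have hMiss : ∀ (ρ : Fin q → Fin n) (i : Fin n),
      (univ.filter fun p => T i p ∧ ∀ a, ¬ (le i (ρ a) ∧ T (ρ a) p)) =
      (TT i).filter fun p => ∀ a, ρ a ∉ Z i p := by
    intro ρ i
    ext p
    simp only [hTT, hZ, mem_filter, mem_univ, true_and]
  have h1 : ∑ ρ : Fin q → Fin n, ∑ i,
      (univ.filter fun p => T i p ∧ ∀ a, ¬ (le i (ρ a) ∧ T (ρ a) p)).card =
      ∑ i, ∑ p ∈ TT i, (n - (Z i p).card) ^ q := by
    rw [sum_comm]
    apply sum_congr rfl
    intro i _
    simp_rw [hMiss, card_filter]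
    rw [sum_comm]
    apply sum_congr rfl
    intro p _
    rw [← card_filter, card_avoid]
  have h2 : ∑ i, ∑ p ∈ TT i, (n - (Z i p).card) ^ q =
      ∑ p : Fin n × Fin n, ∑ i ∈ univ.filter (fun i => p ∈ TT i), (n - (Z i p).card) ^ q := by
    apply sum_comm'
    intro i p
    simp
  rw [h1, h2, mul_sum]
  have h3 : ∀ p : Fin n × Fin n,
      (q + 1) * ∑ i ∈ univ.filter (fun i => p ∈ TT i), (n - (Z i p).card) ^ q ≤ n ^ (q + 1) := by
    intro p
    refine le_trans ?_ (powsum_le q n)
    apply Nat.mul_le_mul_left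
    have hTi : ∀ i ∈ univ.filter (fun i => p ∈ TT i), T i p := by
      intro i hi
      rw [mem_filter] at hi
      have := hi.2
      simp only [hTT, mem_filter, mem_univ, true_and] at this
      exact this
    have hmemZ : ∀ i ∈ univ.filter (fun i => p ∈ TT i), i ∈ Z i p := by
      intro i hi
      simp only [hZ, mem_filter, mem_univ, true_and]
      exact ⟨hrefl i, hTi i hi⟩
    have hlt : ∀ i ∈ univ.filter (fun i => p ∈ TT i), ∀ i' ∈ univ.filter (fun i => p ∈ TT i),
        le i i' → i ≠ i' → (Z i' p).card < (Z i p).card := by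
      intro i hi i' _ hii hne
      apply card_lt_card
      rw [ssubset_iff_of_subset]
      · refine ⟨i, hmemZ i hi, ?_⟩
        simp only [hZ, mem_filter, mem_univ, true_and, not_and]
        intro h
        exact absurd (hanti i i' hii h) hne
      · intro k hk
        simp only [hZ, mem_filter, mem_univ, true_and] at hk ⊢
        exact ⟨htrans i i' k hii hk.1, hk.2⟩
    have hcardle : ∀ i, (Z i p).card ≤ n := by
      intro i
      have := card_le_univ (Z i p)
      simpa using this
    have hinj : Set.InjOn (fun i => n - (Z i p).card)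
        (univ.filter (fun i => p ∈ TT i) : Finset (Fin n)) := by
      intro i hi i' hi' heq
      simp only at heq
      by_contra hne
      rcases htot i i' with h | h
      · have := hlt i hi i' hi' h hne
        have h1 := hcardle i
        have h2 := hcardle i'
        omega
      · have := hlt i' hi' i hi h (fun e => hne e.symm)
        have h1 := hcardle i
        have h2 := hcardle i'
        omega
    rw [← sum_image (f := fun j => j ^ q) hinj]
    apply sum_le_sum_of_subset
    intro j hj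
    rw [mem_image] at hj
    obtain ⟨i, hi, rfl⟩ := hj
    rw [mem_range]
    have h1 : 0 < (Z i p).card := card_pos.mpr ⟨i, hmemZ i hi⟩
    have h2 : 0 < n := i.pos
    omega
  calc ∑ p : Fin n × Fin n,
        (q + 1) * ∑ i ∈ univ.filter (fun i => p ∈ TT i), (n - (Z i p).card) ^ q
      ≤ ∑ _p : Fin n × Fin n, n ^ (q + 1) := sum_le_sum fun p _ => h3 p
    _ = n * n * n ^ (q + 1) := by simp

theorem pairCopG_self (A : Fin n → Fin n → Bool) (k : Fin n) : pairCopG A k k = ∅ := by
  rw [pairCopG, filter_eq_empty_iff]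
  rintro p _ ⟨h, _⟩
  exact lt_irrefl _ h

/-- the hit pairs, summed over all tuples -/
theorem sum_hitG_le (A : Fin n → Fin n → Bool) (q : ℕ) :
    (q + 1) * (∑ ρ : Fin q → Fin n, ∑ i, (HitG A (univ.image ρ) i).card) ≤
      n * n * n ^ (q + 1) := by
  classical
  have h := sum_avoid_le (fun i k : Fin n => i ≤ k) (fun i => le_refl i)
    (fun _ _ _ h1 h2 => le_trans h1 h2) (fun _ _ h1 h2 => le_antisymm h1 h2)
    (fun i j => le_total i j)
    (fun i p => p.1 < p.2 ∧ A i p.1 = true ∧ A i p.2 = false) q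
  have he : ∀ (ρ : Fin q → Fin n) (i : Fin n), HitG A (univ.image ρ) i =
      univ.filter fun p : Fin n × Fin n => (p.1 < p.2 ∧ A i p.1 = true ∧ A i p.2 = false) ∧
        ∀ a, ¬ (i ≤ ρ a ∧ (p.1 < p.2 ∧ A (ρ a) p.1 = true ∧ A (ρ a) p.2 = false)) := by
    intro ρ i
    ext p
    simp only [HitG, mem_filter, mem_univ, true_and, mem_image, forall_exists_index,
      forall_apply_eq_imp_iff]
    constructor
    · rintro ⟨h1, h2, h3, h4⟩
      refine ⟨⟨h1, h2, h3⟩, ?_⟩
      rintro a ⟨ha, _, hb⟩
      exact h4 a ha hb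
    · rintro ⟨⟨h1, h2, h3⟩, h4⟩
      refine ⟨h1, h2, h3, ?_⟩
      intro a ha hb
      exact h4 a ⟨ha, h1, hb⟩
  simp_rw [he]
  exact h

/-- the missed pairs, summed over all tuples -/
theorem sum_missG_le (A : Fin n → Fin n → Bool) (q : ℕ) :
    (q + 1) * (∑ ρ : Fin q → Fin n, ∑ i, (MissG A (univ.image ρ) i).card) ≤
      n * n * n ^ (q + 1) := by
  classical
  have h := sum_avoid_le (fun i k : Fin n => k ≤ i) (fun i => le_refl i)
    (fun _ _ _ h1 h2 => le_trans h2 h1) (fun _ _ h1 h2 => le_antisymm h2 h1)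
    (fun i j => le_total j i)
    (fun i p => p.1 < p.2 ∧ A i p.1 = true ∧ A i p.2 = true) q
  have he : ∀ (ρ : Fin q → Fin n) (i : Fin n), MissG A (univ.image ρ) i =
      univ.filter fun p : Fin n × Fin n => (p.1 < p.2 ∧ A i p.1 = true ∧ A i p.2 = true) ∧
        ∀ a, ¬ (ρ a ≤ i ∧ (p.1 < p.2 ∧ A (ρ a) p.1 = true ∧ A (ρ a) p.2 = true)) := by
    intro ρ i
    ext p
    simp only [MissG, mem_filter, mem_univ, true_and, mem_image, forall_exists_index,
      forall_apply_eq_imp_iff]
    constructor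
    · rintro ⟨h1, h2, h3, h4⟩
      refine ⟨⟨h1, h2, h3⟩, ?_⟩
      rintro a ⟨ha, _, hb⟩
      exact h4 a ha hb
    · rintro ⟨⟨h1, h2, h3⟩, h4⟩
      refine ⟨h1, h2, h3, ?_⟩
      intro a ha hb
      exact h4 a ⟨ha, h1, hb⟩
  simp_rw [he]
  exact h

end Vale.Agent.H10.Removal
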