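import Vale.Agent.H10.Removal.Sort

/-!
# The identity pattern: repairing a matrix from a sample of rows

`IsCop A i j c c'` says that rows `i < j` and columns `c < c'` of the binary matrix `A` carry a
copy of the `2 × 2` identity pattern.  Given a set `R` of sampled rows and a set `G` of columns
such that the sampled rows carry no copy on columns of `G`, we build a copy-free matrix `B`
and bound the number of entries where it differs from `A`.
-/

namespace Vale.Agent.H10.Removal

open Finset

variable {n : ℕ}

/-- rows `i < j` and columns `c < c'` carry a copy of the identity pattern -/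
def IsCop (A : Fin n → Fin n → Bool) (i j c c' : Fin n) : Prop :=
  i < j ∧ c < c' ∧ A i c = true ∧ A i c' = false ∧ A j c = false ∧ A j c' = true

instance (A : Fin n → Fin n → Bool) (i j c c' : Fin n) : Decidable (IsCop A i j c c') := by
  unfold IsCop; infer_instance

/-- no copy of the identity pattern -/
def Free (A : Fin n → Fin n → Bool) : Prop := ∀ i j c c', ¬ IsCop A i j c c'

/-- the copies carried by a fixed pair of rows -/
def pairCop (A : Fin n → Fin n → Bool) (i j : Fin n) : Finset (Fin n × Fin n) :=
  univ.filter fun p => IsCop A i j p.1 p.2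

/-- column `c` restricted to the sampled rows at or below row `i` -/
def mask (A : Fin n → Fin n → Bool) (R : Finset (Fin n)) (i c : Fin n) : Fin n → Bool :=
  fun k => decide (k ∈ R ∧ i ≤ k) && A k c

/-- the lexicographic key of a column -/
noncomputable def K (A : Fin n → Fin n → Bool) (R : Finset (Fin n)) (i c : Fin n) :
    Lex (Fin n → Bool) := toLex (mask A R i c)

/-- the key with ties broken by the reversed column order -/
noncomputable def kap (A : Fin n → Fin n → Bool) (R : Finset (Fin n)) (i c : Fin n) :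
    Lex (Fin n → Bool) ×ₗ (Fin n)ᵒᵈ := toLex (K A R i c, OrderDual.toDual c)

theorem K_lt {A : Fin n → Fin n → Bool} {R : Finset (Fin n)} {i c c' : Fin n}
    (h : K A R i c < K A R i c') :
    ∃ k, k ∈ R ∧ i ≤ k ∧ A k c = false ∧ A k c' = true ∧
      ∀ l, l < k → l ∈ R → i ≤ l → A l c = A l c' := by
  obtain ⟨k, hk1, hk2⟩ := h
  have hk2' : mask A R i c k < mask A R i c' k := hk2
  rw [Bool.lt_iff] at hk2'
  obtain ⟨h0, h1⟩ := hk2'
  simp only [mask, Bool.and_eq_true, decide_eq_true_eq] at h1
  obtain ⟨⟨hkR, hik⟩, hA1⟩ := h1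
  have hA0 : A k c = false := by
    simp only [mask] at h0
    have : decide (k ∈ R ∧ i ≤ k) = true := by simp [hkR, hik]
    rw [this] at h0
    simpa using h0
  refine ⟨k, hkR, hik, hA0, hA1, ?_⟩
  intro l hl hlR hil
  have := hk1 l hl
  have h2 : mask A R i c l = mask A R i c' l := this
  simp only [mask] at h2
  have : decide (l ∈ R ∧ i ≤ l) = true := by simp [hlR, hil]
  rw [this] at h2
  simpa using h2

theorem K_ne {A : Fin n → Fin n → Bool} {R : Finset (Fin n)} {i c c' k : Fin n}
    (hkR : k ∈ R) (hik : i ≤ k) (hne : A k c ≠ A k c') : K A R i c ≠ K A R i c' := by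
  intro h
  have h1 : mask A R i c = mask A R i c' := toLex.injective h
  have h2 := congrFun h1 k
  simp only [mask] at h2
  have : decide (k ∈ R ∧ i ≤ k) = true := by simp [hkR, hik]
  rw [this] at h2
  exact hne (by simpa using h2)

theorem kap_injective (A : Fin n → Fin n → Bool) (R : Finset (Fin n)) (i : Fin n) :
    Function.Injective (kap A R i) := by
  intro c c' h
  have h1 : (K A R i c, OrderDual.toDual c) = (K A R i c', OrderDual.toDual c') :=
    toLex.injective h
  have h2 := congrArg Prod.snd h1
  exact OrderDual.toDual.injective h2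

theorem kap_lt_inv {A : Fin n → Fin n → Bool} {R : Finset (Fin n)} {i c c' : Fin n}
    (hcc : c < c') : kap A R i c' < kap A R i c ↔ K A R i c' ≤ K A R i c := by
  unfold kap
  rw [Prod.Lex.toLex_lt_toLex]
  simp only
  constructor
  · rintro (h | ⟨h, _⟩)
    · exact h.le
    · exact h.le
  · intro h
    rcases lt_or_eq_of_le h with h | h
    · exact Or.inl h
    · exact Or.inr ⟨h, OrderDual.toDual_lt_toDual.mpr hcc⟩

theorem kap_lt_nat {A : Fin n → Fin n → Bool} {R : Finset (Fin n)} {i c c' : Fin n}
    (hcc : c < c') : kap A R i c < kap A R i c' ↔ K A R i c < K A R i c' := by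
  unfold kap
  rw [Prod.Lex.toLex_lt_toLex]
  simp only
  constructor
  · rintro (h | ⟨_, h⟩)
    · exact h
    · exact absurd (OrderDual.toDual_lt_toDual.mp h) (not_lt.mpr hcc.le)
  · intro h
    exact Or.inl h

/-- once a pair of columns is inverted it stays inverted further down -/
theorem K_mono {A : Fin n → Fin n → Bool} {R G : Finset (Fin n)}
    (hfree : ∀ k1 ∈ R, ∀ k2 ∈ R, ∀ c ∈ G, ∀ c' ∈ G, ¬ IsCop A k1 k2 c c')
    {i j c c' : Fin n} (hc : c ∈ G) (hc' : c' ∈ G) (hcc : c < c') (hij : i ≤ j)
    (h : K A R i c' ≤ K A R i c) : K A R j c' ≤ K A R j c := by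
  by_contra hcon
  have hlt : K A R j c < K A R j c' := not_le.mp hcon
  obtain ⟨k, hkR, hjk, hk0, hk1, _⟩ := K_lt hlt
  have hne : K A R i c' ≠ K A R i c := by
    apply K_ne hkR (le_trans hij hjk)
    rw [hk0, hk1]; simp
  have hlt' : K A R i c' < K A R i c := lt_of_le_of_ne h hne
  obtain ⟨k', hk'R, hik', hk'0, hk'1, hk'eq⟩ := K_lt hlt'
  rcases lt_trichotomy k' k with hkk | hkk | hkk
  · exact hfree k' hk'R k hkR c hc c' hc' ⟨hkk, hcc, hk'1, hk'0, hk0, hk1⟩
  · rw [hkk] at hk'1
    rw [hk0] at hk'1
    exact Bool.false_ne_true hk'1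
  · have := hk'eq k hkk hkR (le_trans hij hjk)
    rw [hk0, hk1] at this
    exact Bool.false_ne_true this.symm

/-- pairs `(u, v)` of columns, `u < v`, with a copy on rows `i` and some sampled row -/
def HitSet (A : Fin n → Fin n → Bool) (R : Finset (Fin n)) (i : Fin n) : Finset (Fin n × Fin n) :=
  univ.filter fun p => ∃ k ∈ R, IsCop A i k p.1 p.2

/-- pairs `(u, v)` of columns, `v < u`, where row `i` reads `0 1` on `(v, u)` and no sampled
row at or below `i` does -/
def MissSet (A : Fin n → Fin n → Bool) (R : Finset (Fin n)) (i : Fin n) : Finset (Fin n × Fin n) :=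
  univ.filter fun p => p.2 < p.1 ∧ A i p.2 = false ∧ A i p.1 = true ∧
    ∀ k ∈ R, i ≤ k → ¬ (A k p.2 = false ∧ A k p.1 = true)

theorem exists_free_of_sample (A : Fin n → Fin n → Bool) (R G : Finset (Fin n))
    (hfree : ∀ k1 ∈ R, ∀ k2 ∈ R, ∀ c ∈ G, ∀ c' ∈ G, ¬ IsCop A k1 k2 c c') :
    ∃ (B : Fin n → Fin n → Bool) (d : Fin n → ℕ), Free B ∧
      (∀ i, (univ.filter fun c => A i c ≠ B i c).card ≤ Gᶜ.card + 2 * d i) ∧
      (∀ i, d i * d i ≤ (HitSet A R i).card + (MissSet A R i).card) := by
  classical
  have key : ∀ i, ∃ F ⊆ G, (∀ x ∈ F, ∀ y ∈ G, kap A R i x < kap A R i y → y ∈ F) ∧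
      ∃ d : ℕ, ((G.filter fun c => A i c = true) \ F).card = d ∧
        (F \ (G.filter fun c => A i c = true)).card = d ∧
        d * d ≤ (((G.filter fun c => A i c = true) ×ˢ (G \ (G.filter fun c => A i c = true))).filter
          (fun p => kap A R i p.1 < kap A R i p.2)).card :=
    fun i => sort_lemma G (G.filter fun c => A i c = true) (filter_subset _ _) (kap A R i)
      (kap_injective A R i).injOn
  choose F hFG hup d hd1 hd2 hd3 using key
  refine ⟨fun i c => decide (c ∈ F i), d, ?_, ?_, ?_⟩
  · -- freeness
    rintro i j c c' ⟨hij, hcc, h1, h2, h3, h4⟩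
    simp only [decide_eq_true_eq, decide_eq_false_iff_not] at h1 h2 h3 h4
    have hcG := hFG i h1
    have hc'G := hFG j h4
    have hinv : kap A R i c' < kap A R i c := by
      by_contra hh
      rcases lt_or_eq_of_le (not_lt.mp hh) with h | h
      · exact h2 (hup i c h1 c' hc'G h)
      · exact (ne_of_lt hcc) (kap_injective A R i h)
    have h5 : K A R j c' ≤ K A R j c :=
      K_mono hfree hcG hc'G hcc hij.le ((kap_lt_inv hcc).mp hinv)
    exact h3 (hup j c' h4 c hcG ((kap_lt_inv hcc).mpr h5))
  · -- cost
    intro i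
    have hsub : (univ.filter fun c => A i c ≠ decide (c ∈ F i)) ⊆
        Gᶜ ∪ (((G.filter fun c => A i c = true) \ F i) ∪ (F i \ (G.filter fun c => A i c = true))) := by
      intro c hc
      rw [mem_filter] at hc
      have hc2 := hc.2
      by_cases hcG : c ∈ G
      · apply mem_union_right
        by_cases hA : A i c = true
        · apply mem_union_left
          rw [mem_sdiff, mem_filter]
          refine ⟨⟨hcG, hA⟩, ?_⟩
          intro hF
          apply hc2
          rw [hA]; simp [hF]
        · apply mem_union_right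
          rw [mem_sdiff, mem_filter]
          have hA' : A i c = false := by simpa using hA
          refine ⟨?_, fun h => hA h.2⟩
          by_contra hF
          apply hc2
          rw [hA']; simp [hF]
      · apply mem_union_left
        rw [mem_compl]; exact hcG
    calc (univ.filter fun c => A i c ≠ decide (c ∈ F i)).card
        ≤ (Gᶜ ∪ (((G.filter fun c => A i c = true) \ F i) ∪
            (F i \ (G.filter fun c => A i c = true)))).card := card_le_card hsub
      _ ≤ Gᶜ.card + (((G.filter fun c => A i c = true) \ F i) ∪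
            (F i \ (G.filter fun c => A i c = true))).card := card_union_le _ _
      _ ≤ Gᶜ.card + (((G.filter fun c => A i c = true) \ F i).card +
            (F i \ (G.filter fun c => A i c = true)).card) := by
          gcongr; exact card_union_le _ _
      _ = Gᶜ.card + 2 * d i := by rw [hd1, hd2]; ring
  · -- inversions
    intro i
    refine le_trans (hd3 i) ?_
    refine le_trans (card_le_card ?_) (card_union_le _ _)
    intro p hp
    rw [mem_filter, mem_product, mem_filter, mem_sdiff, mem_filter] at hp
    obtain ⟨⟨⟨h1G, h1A⟩, h2G, h2A⟩, hlt⟩ := hp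
    have h2A' : A i p.2 = false := by
      have : ¬ A i p.2 = true := fun h => h2A ⟨h2G, h⟩
      simpa using this
    rcases lt_trichotomy p.1 p.2 with h12 | h12 | h12
    · apply mem_union_left
      rw [HitSet, mem_filter]
      refine ⟨mem_univ _, ?_⟩
      obtain ⟨k, hkR, hik, hk0, hk1, _⟩ := K_lt ((kap_lt_nat h12).mp hlt)
      have hne : i ≠ k := by
        intro h
        rw [← h, h1A] at hk0
        exact Bool.false_ne_true hk0.symm
      exact ⟨k, hkR, lt_of_le_of_ne hik hne, h12, h1A, h2A', hk0, hk1⟩
    · rw [h12] at h1A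
      rw [h1A] at h2A'
      exact absurd h2A' (by simp)
    · apply mem_union_right
      rw [MissSet, mem_filter]
      refine ⟨mem_univ _, h12, h2A', h1A, ?_⟩
      rintro k hkR hik ⟨hk2, hk1⟩
      have hle : K A R i p.1 ≤ K A R i p.2 := (kap_lt_inv h12).mp hlt
      have hne : K A R i p.1 ≠ K A R i p.2 := by
        apply K_ne hkR hik
        rw [hk1, hk2]; simp
      obtain ⟨k', hk'R, hik', hk'0, hk'1, hk'eq⟩ := K_lt (lt_of_le_of_ne hle hne)
      rcases lt_trichotomy k' k with hkk | hkk | hkk
      · exact hfree k' hk'R k hkR p.2 h2G p.1 h1G ⟨hkk, h12, hk'1, hk'0, hk2, hk1⟩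
      · rw [hkk, hk1] at hk'0
        exact Bool.false_ne_true hk'0.symm
      · have := hk'eq k hkk hkR hik
        rw [hk1, hk2] at this
        exact Bool.false_ne_true this.symm

end Vale.Agent.H10.Removal
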