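import Vale.Agent.H10.Removal.Ident

/-!
# Repair from a tuple of sampled rows

Columns hitting all copies on a pair of rows, and the repaired matrix attached to a tuple
`ρ : Fin q → Fin n` of sampled rows.
-/

namespace Vale.Agent.H10.Removal

open Finset

variable {n : ℕ}

theorem exists_hitting (A : Fin n → Fin n → Bool) (k1 k2 : Fin n) :
    ∃ (X : Finset (Fin n)) (d : ℕ), X.card ≤ 2 * d ∧ d * d ≤ (pairCop A k1 k2).card ∧
      ∀ c c', IsCop A k1 k2 c c' → c ∈ X ∨ c' ∈ X := by
  classical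
  by_cases h12 : k1 < k2
  · have hP : (univ.filter fun c => A k1 c = true ∧ A k2 c = false) ⊆
        (univ.filter fun c => A k1 c ≠ A k2 c) := by
      intro c hc
      rw [mem_filter] at hc ⊢
      refine ⟨mem_univ _, ?_⟩
      rw [hc.2.1, hc.2.2]; simp
    obtain ⟨F, hFX, hup, d, hd1, hd2, hd3⟩ :=
      sort_lemma (univ.filter fun c => A k1 c ≠ A k2 c)
        (univ.filter fun c => A k1 c = true ∧ A k2 c = false) hP (fun c : Fin n => c)
        (fun _ _ _ _ h => h)
    refine ⟨((univ.filter fun c => A k1 c = true ∧ A k2 c = false) \ F) ∪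
      (F \ (univ.filter fun c => A k1 c = true ∧ A k2 c = false)), d, ?_, ?_, ?_⟩
    · refine le_trans (card_union_le _ _) ?_
      rw [hd1, hd2]; omega
    · refine le_trans hd3 (card_le_card ?_)
      intro p hp
      rw [mem_filter, mem_product, mem_filter, mem_sdiff, mem_filter, mem_filter] at hp
      obtain ⟨⟨⟨_, h1a, h1b⟩, ⟨_, h2ne⟩, h2P⟩, hlt⟩ := hp
      rw [pairCop, mem_filter]
      refine ⟨mem_univ _, h12, hlt, h1a, ?_, h1b, ?_⟩
      · cases h : A k1 p.2 with
        | false => rfl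
        | true =>
          exfalso
          apply h2P
          refine ⟨mem_univ _, h, ?_⟩
          cases h' : A k2 p.2 with
          | false => rfl
          | true => rw [h, h'] at h2ne; exact absurd rfl h2ne
      · cases h : A k2 p.2 with
        | true => rfl
        | false =>
          exfalso
          cases h' : A k1 p.2 with
          | false => rw [h, h'] at h2ne; exact absurd rfl h2ne
          | true => exact h2P ⟨mem_univ _, h', h⟩
    · rintro c c' ⟨_, hcc, h1, h2, h3, h4⟩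
      by_contra hcon
      rw [not_or, mem_union, mem_union, not_or, not_or] at hcon
      obtain ⟨⟨hc1, _⟩, _, hc'2⟩ := hcon
      have hcP : c ∈ univ.filter fun c => A k1 c = true ∧ A k2 c = false :=
        mem_filter.mpr ⟨mem_univ _, h1, h3⟩
      have hc'P : c' ∉ univ.filter fun c => A k1 c = true ∧ A k2 c = false := by
        intro h
        rw [mem_filter] at h
        rw [h.2.1] at h2
        exact Bool.false_ne_true h2.symm
      have hcF : c ∈ F := by
        by_contra h
        exact hc1 (mem_sdiff.mpr ⟨hcP, h⟩)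
      have hc'F : c' ∉ F := fun h => hc'2 (mem_sdiff.mpr ⟨h, hc'P⟩)
      have hc'X : c' ∈ univ.filter fun c => A k1 c ≠ A k2 c := by
        rw [mem_filter]
        refine ⟨mem_univ _, ?_⟩
        rw [h2, h4]; simp
      exact hc'F (hup c hcF c' hc'X hcc)
  · refine ⟨∅, 0, by simp, by simp, ?_⟩
    rintro c c' ⟨h, _⟩
    exact absurd h h12

/-- The repaired matrix attached to a tuple of sampled rows. -/
theorem exists_free_of_rows (A : Fin n → Fin n → Bool) :
    ∃ dd : Fin n → Fin n → ℕ, (∀ k1 k2, dd k1 k2 * dd k1 k2 ≤ (pairCop A k1 k2).card) ∧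
      ∀ (q : ℕ) (ρ : Fin q → Fin n), ∃ (B : Fin n → Fin n → Bool) (d : Fin n → ℕ), Free B ∧
        (∀ i, (univ.filter fun c => A i c ≠ B i c).card ≤
          (∑ a, ∑ b, 2 * dd (ρ a) (ρ b)) + 2 * d i) ∧
        (∀ i, d i * d i ≤ (HitSet A (univ.image ρ) i).card + (MissSet A (univ.image ρ) i).card) := by
  classical
  choose Xs dd hX1 hX2 hX3 using exists_hitting A
  refine ⟨dd, hX2, ?_⟩
  intro q ρ
  have hfree : ∀ k1 ∈ univ.image ρ, ∀ k2 ∈ univ.image ρ,
      ∀ c ∈ (univ.biUnion fun a => univ.biUnion fun b => Xs (ρ a) (ρ b))ᶜ,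
      ∀ c' ∈ (univ.biUnion fun a => univ.biUnion fun b => Xs (ρ a) (ρ b))ᶜ,
      ¬ IsCop A k1 k2 c c' := by
    intro k1 hk1 k2 hk2 c hc c' hc' hcop
    obtain ⟨a, _, rfl⟩ := mem_image.mp hk1
    obtain ⟨b, _, rfl⟩ := mem_image.mp hk2
    rw [mem_compl] at hc hc'
    rcases hX3 (ρ a) (ρ b) c c' hcop with h | h
    · exact hc (mem_biUnion.mpr ⟨a, mem_univ _, mem_biUnion.mpr ⟨b, mem_univ _, h⟩⟩)
    · exact hc' (mem_biUnion.mpr ⟨a, mem_univ _, mem_biUnion.mpr ⟨b, mem_univ _, h⟩⟩)
  obtain ⟨B, d, hB, hcost, hinv⟩ := exists_free_of_sample A (univ.image ρ) _ hfree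
  refine ⟨B, d, hB, ?_, hinv⟩
  intro i
  refine le_trans (hcost i) ?_
  rw [compl_compl]
  gcongr
  refine le_trans card_biUnion_le (sum_le_sum fun a _ => ?_)
  refine le_trans card_biUnion_le (sum_le_sum fun b _ => ?_)
  exact hX1 (ρ a) (ρ b)

end Vale.Agent.H10.Removal
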